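import Vale.Agent.P300.H435.L2.Basic

/-!
# Descent of holomorphic functions along a fibration of étale covers
-/

open Filter Topology Set
open Vale.Agent.P300.L2 Vale.Agent.P300.L2.Sheets

set_option linter.unusedSectionVars false

noncomputable section

namespace Vale.Agent.P299.H126

variable {n k N N' : ℕ}

/-- the point with coordinates `w` along `ι` and the coordinates of `z` otherwise -/
def ins (ι : Fin k ↪ Fin n) (z : Fin n → ℂ) (w : Fin k → ℂ) : Fin n → ℂ :=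
  Function.extend ι w z

theorem ins_comp (ι : Fin k ↪ Fin n) (z : Fin n → ℂ) (w : Fin k → ℂ) : ins ι z w ∘ ι = w := by
  funext l
  exact ι.injective.extend_apply w z l

theorem ins_self (ι : Fin k ↪ Fin n) (z : Fin n → ℂ) : ins ι z (z ∘ ι) = z := by
  funext i
  by_cases h : ∃ l, ι l = i
  · obtain ⟨l, rfl⟩ := h
    exact ι.injective.extend_apply _ z l
  · exact Function.extend_apply' _ _ _ h

theorem ins_differentiable (ι : Fin k ↪ Fin n) (z : Fin n → ℂ) :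
    Differentiable ℂ (ins ι z) := by
  rw [differentiable_pi]
  intro i
  by_cases h : ∃ l, ι l = i
  · obtain ⟨l, rfl⟩ := h
    have h1 : (fun w => ins ι z w (ι l)) = fun w : Fin k → ℂ => w l := by
      funext w
      exact ι.injective.extend_apply w z l
    rw [h1]
    exact differentiable_apply l
  · have h1 : (fun w => ins ι z w i) = fun _ : Fin k → ℂ => z i := by
      funext w
      exact Function.extend_apply' _ _ _ h
    rw [h1]
    exact differentiable_const _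

variable {S : Sheets n N} {T : Sheets k N'} {ι : Fin k ↪ Fin n}
  {Φ : (Fin n → ℂ) × ℕ → (Fin k → ℂ) × ℕ}

/-- near a point of `T`, the points of the fibration through `q` -/
theorem ins_eventually (fst : ∀ q ∈ S.M, (Φ q).1 = q.1 ∘ ι)
    (loc : ∀ W s, S.IsSection W s → ∀ z ∈ W, ∃ W' σ, T.IsSection W' σ ∧ z ∘ ι ∈ W' ∧
      ∀ᶠ ζ in 𝓝 z, (Φ (ζ, s ζ)).2 = σ (ζ ∘ ι))
    {W : Set (Fin n → ℂ)} {s : (Fin n → ℂ) → ℕ} (hs : S.IsSection W s) {z : Fin n → ℂ}
    (hz : z ∈ W) {W' : Set (Fin k → ℂ)} {σ : (Fin k → ℂ) → ℕ} (hσ : T.IsSection W' σ)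
    (hz' : z ∘ ι ∈ W') (h : (Φ (z, s z)).2 = σ (z ∘ ι)) :
    ∀ᶠ w in 𝓝 (z ∘ ι), ins ι z w ∈ W ∧ Φ (ins ι z w, s (ins ι z w)) = (w, σ w) := by
  obtain ⟨W₁, σ₁, hσ₁, hz₁, hev⟩ := loc W s hs z hz
  have h0 : σ₁ (z ∘ ι) = σ (z ∘ ι) := by rw [← hev.self_of_nhds, h]
  have hgerm := hσ₁.germ hσ hz₁ hz' h0
  have hc : Tendsto (ins ι z) (𝓝 (z ∘ ι)) (𝓝 z) := by
    have := (ins_differentiable ι z).continuous.continuousAt (x := z ∘ ι)
    rwa [ContinuousAt, ins_self] at this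
  filter_upwards [hc.eventually hev, hc.eventually (hs.isOpen.mem_nhds hz), hgerm]
    with w h1 h2 h3
  refine ⟨h2, Prod.ext ?_ ?_⟩
  · rw [fst _ (hs.mem_M h2)]
    exact ins_comp ι z w
  · rw [h1, ins_comp, h3]

/-- **Descent** -/
theorem descend (fst : ∀ q ∈ S.M, (Φ q).1 = q.1 ∘ ι) (maps : ∀ q ∈ S.M, Φ q ∈ T.M)
    (loc : ∀ W s, S.IsSection W s → ∀ z ∈ W, ∃ W' σ, T.IsSection W' σ ∧ z ∘ ι ∈ W' ∧
      ∀ᶠ ζ in 𝓝 z, (Φ (ζ, s ζ)).2 = σ (ζ ∘ ι))
    (surj : ∀ y ∈ T.M, ∃ q ∈ S.M, Φ q = y)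
    {G : (Fin n → ℂ) × ℕ → ℂ} (hG : S.Holo G) {a c : (Fin k → ℂ) × ℕ → ℂ}
    (hc : ∀ W' σ, T.IsSection W' σ → ∀ z ∈ W', ∃ᶠ w in 𝓝 z, c (w, σ w) ≠ 0)
    (h : ∀ q ∈ S.M, c (Φ q) * G q = a (Φ q)) :
    ∃ f, T.Holo f ∧ ∀ q ∈ S.M, G q = f (Φ q) := by
  classical
  -- continuity of the local lifts
  have hcont : ∀ {W : Set (Fin n → ℂ)} {s : (Fin n → ℂ) → ℕ} (_ : S.IsSection W s)
      {z : Fin n → ℂ} (_ : z ∈ W),
      DifferentiableAt ℂ (fun w => G (ins ι z w, s (ins ι z w))) (z ∘ ι) := by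
    intro W s hs z hz
    have h1 : DifferentiableAt ℂ (fun ζ => G (ζ, s ζ)) (ins ι z (z ∘ ι)) := by
      rw [ins_self]
      exact (hG W s hs).differentiableAt (hs.isOpen.mem_nhds hz)
    exact h1.comp (z ∘ ι) (ins_differentiable ι z _)
  -- `G` is constant along the fibres
  have hfib : ∀ q ∈ S.M, ∀ q' ∈ S.M, Φ q = Φ q' → G q = G q' := by
    intro q hq q' hq' hqq
    obtain ⟨s, W, hs, hW, hsq⟩ := exists_section hq
    obtain ⟨s', W₁, hs', hW₁, hsq'⟩ := exists_section hq'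
    obtain ⟨σ, V, hσ, hV, hσq⟩ := exists_section (maps q hq)
    have hf1 := fst q hq
    have hf2 := fst q' hq'
    have hf3 : q'.1 ∘ ι = q.1 ∘ ι := by rw [← hf2, ← hqq, hf1]
    have e1 := ins_eventually (T := T) fst loc hs hW hσ (by rw [← hf1]; exact hV)
      (by rw [hsq]; show (Φ q).2 = _; rw [← hf1, hσq])
    have e2 := ins_eventually (T := T) fst loc hs' hW₁ hσ (by rw [hf3, ← hf1]; exact hV)
      (by rw [hsq']; show (Φ q').2 = _; rw [← hqq, hf3, ← hf1, hσq])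
    rw [hf3] at e2
    by_contra hne
    have c1 := (hcont hs hW).continuousAt
    have c2 := (hcont hs' hW₁).continuousAt
    rw [hf3] at c2
    have hne' : (fun w => G (ins ι q.1 w, s (ins ι q.1 w))) (q.1 ∘ ι) ≠
        (fun w => G (ins ι q'.1 w, s' (ins ι q'.1 w))) (q.1 ∘ ι) := by
      have h1 : ins ι q'.1 (q.1 ∘ ι) = q'.1 := by rw [← hf3, ins_self]
      simp only [h1, ins_self, hsq, hsq']
      exact hne
    have e3 := (c1.ne_iff_eventually_ne c2).1 hne'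
    have hfr := hc V σ hσ (q.1 ∘ ι) (by rw [← hf1]; exact hV)
    obtain ⟨w, w1, w2, w3, w4⟩ := (hfr.and_eventually (e1.and (e2.and e3))).exists
    have g1 := h _ (hs.mem_M w2.1)
    have g2 := h _ (hs'.mem_M w3.1)
    rw [w2.2] at g1
    rw [w3.2, ← g1] at g2
    exact w4 (mul_left_cancel₀ w1 g2).symm
  refine ⟨fun y => if hy : ∃ q ∈ S.M, Φ q = y then G hy.choose else 0, ?_, ?_⟩
  swap
  · intro q hq
    have hy : ∃ q' ∈ S.M, Φ q' = Φ q := ⟨q, hq, rfl⟩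
    simp only [hy, dif_pos]
    exact hfib q hq _ hy.choose_spec.1 hy.choose_spec.2.symm
  · intro V σ hσ z hz
    obtain ⟨q, hq, hqz⟩ := surj _ (hσ.mem_M hz)
    obtain ⟨s, W, hs, hW, hsq⟩ := exists_section hq
    have hf1 : z = q.1 ∘ ι := by rw [← fst q hq, hqz]
    have e1 := ins_eventually (T := T) fst loc hs hW hσ (by rw [← hf1]; exact hz)
      (by rw [hsq]; show (Φ q).2 = _; rw [hqz, ← hf1])
    rw [hf1]
    refine DifferentiableAt.differentiableWithinAt ?_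
    refine (hcont hs hW).congr_of_eventuallyEq ?_
    filter_upwards [e1] with w hw
    have hy : ∃ q' ∈ S.M, Φ q' = (w, σ w) := ⟨_, hs.mem_M hw.1, hw.2⟩
    simp only [hy, dif_pos]
    exact hfib _ hy.choose_spec.1 _ (hs.mem_M hw.1) (by rw [hy.choose_spec.2, hw.2])

end Vale.Agent.P299.H126
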